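import Vale.Agent.P140.Unique

namespace Vale.Agent.Results.P140.ColdMaxwellianUnique

open MeasureTheory Vale.Agent.P140

/-- Every global Maxwellian `F0 = M_{ρ,u,θ}` with `ρ ≥ 0`, arbitrary `u` and `0 < θ ≤ 1` is a datum,
and every curve `F` obeying the a-priori bounds of a renormalized entropy solution with datum `F0`
equals `F0` almost everywhere at every time. -/
theorem result : ∀ (ρ : ℝ) (u : Vel) (θ : ℝ), 0 ≤ ρ → 0 < θ → θ ≤ 1 →
    FiniteMassEnergyEntropy (fun z : Phase => maxwellian ρ u θ z.2) ∧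
    ∀ F : ℝ → Phase → ℝ, EntropyAdmissible (fun z : Phase => maxwellian ρ u θ z.2) F →
      ∀ t : ℝ, 0 ≤ t → F t =ᵐ[volume] (fun z : Phase => maxwellian ρ u θ z.2) := by
  intro ρ u θ hρ hθ hθ1
  rcases hρ.eq_or_lt with h0 | hpos
  · subst h0
    have hz : (fun z : Phase => maxwellian 0 u θ z.2) = fun _ => 0 := by
      funext z; simp [maxwellian]
    rw [hz]
    refine ⟨⟨aestronglyMeasurable_const, Filter.Eventually.of_forall (fun _ => le_rfl), by simp⟩, ?_⟩
    intro F h t ht
    have hm := h.mass t ht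
    simp only [integral_zero] at hm
    exact (integral_eq_zero_iff_of_nonneg_ae (h.cls t ht).nonneg
      (h.cls t ht).integrable_self).mp hm
  · exact ⟨maxwellian_class ρ hpos u θ hθ,
      fun F h t ht => maxwellian_unique ρ hpos u θ hθ hθ1 F h t ht⟩

end Vale.Agent.Results.P140.ColdMaxwellianUnique
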